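import Vale.Agent.P088.R2.H31.EP.CstL
import Vale.Agent.P088.R2.H644.W.Prof2

/-!
# P088, stage 3, zone A: `G` is very small at the deep points (numbers)
-/

open Set Filter
open scoped ContDiff Topology

noncomputable section

namespace Vale.Agent.P088.R2.H475.A

open Vale.Agent.P088.R2.H644

/-- The logarithm of the profile. -/
theorem log_S {e : ℝ} (he : 0 < e) : ∃ C : ℝ, ∀ r, 0 < r →
    Real.log (Ph 2 (4 / 5) e 20 (1 / 10) (r ^ 2)) ≤ C + 4 / 5 * r := by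
  have h : PP 2 (4 / 5) e 20 (1 / 10) := by
    refine ⟨by norm_num, by norm_num, he, by norm_num, by norm_num, ?_⟩
    have := Real.exp_bound_div_one_sub_of_interval' (x := 1 / 10) (by norm_num) (by norm_num)
    have h2 : (1 : ℝ) / (1 - 1 / 10) = 10 / 9 := by norm_num
    rw [h2] at this
    linarith
  obtain ⟨R₁, hR, hR1⟩ := h.exists_R
  have hR0 : 0 < R₁ := by linarith
  refine ⟨|Real.log (Ph 2 (4 / 5) e 20 (1 / 10) (R₁ ^ 2))|, fun r hr => ?_⟩
  have hp := h.S_pos (s := R₁ ^ 2) (by positivity)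
  have ha := le_abs_self (Real.log (Ph 2 (4 / 5) e 20 (1 / 10) (R₁ ^ 2)))
  rcases le_total R₁ r with h1 | h1
  · rw [h.S_far hR0 (fun r hr => (hR1 r hr).1) h1, Real.log_mul hp.ne' (Real.exp_pos _).ne',
      Real.log_exp]
    nlinarith
  · have hm : MonotoneOn (Ph 2 (4 / 5) e 20 (1 / 10)) (Ici 0) := by
      refine monotoneOn_of_deriv_nonneg (convex_Ici 0) h.contDiff_Ph.continuous.continuousOn
        (h.contDiff_Ph.differentiable (by simp)).differentiableOn ?_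
      intro s hs
      rw [interior_Ici] at hs
      have := h.d2_Ph.1 s
      rw [this.deriv]
      exact (h.Ph1_pos (le_of_lt hs)).le
    have h2 : Ph 2 (4 / 5) e 20 (1 / 10) (r ^ 2) ≤ Ph 2 (4 / 5) e 20 (1 / 10) (R₁ ^ 2) :=
      hm (mem_Ici.2 (sq_nonneg _)) (mem_Ici.2 (sq_nonneg _)) (by gcongr)
    have h3 := Real.log_le_log (h.S_pos (s := r ^ 2) (by positivity)) h2
    have : 0 ≤ 4 / 5 * r := by positivity
    linarith

/-- Stretched exponentials. -/
theorem str_exp {c a : ℝ} (hc : 0 < c) (ha : 0 < a) :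
    ∀ᶠ t : ℝ in atTop, 2 * Real.exp (-(c * √t)) ≤ a / t := by
  have h1 := Real.tendsto_pow_mul_exp_neg_atTop_nhds_zero 2
  have h2 : Tendsto (fun t : ℝ => c * √t) atTop atTop :=
    Real.tendsto_sqrt_atTop.const_mul_atTop hc
  have h3 := (h1.comp h2).eventually (Iio_mem_nhds (show (0 : ℝ) < a * c ^ 2 / 2 by positivity))
  filter_upwards [h3, eventually_gt_atTop 0] with t ht h0
  simp only [Function.comp_apply] at ht
  rw [mul_pow, Real.sq_sqrt h0.le] at ht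
  have ht' : c ^ 2 * t * Real.exp (-(c * √t)) < a * c ^ 2 / 2 := ht
  rw [le_div_iff₀ h0]
  have h5 : 0 < c ^ 2 := by positivity
  have h6 : c ^ 2 * (2 * Real.exp (-(c * √t)) * t) < c ^ 2 * a := by nlinarith
  exact le_of_lt (lt_of_mul_lt_mul_left h6 h5.le)

/-- The numbers at the deep points. -/
theorem deep_num {κ R r₁ a f r k : ℝ} (h0 : 0 < κ) (hR : 0 < R) (h1 : 0 < r₁)
    (hr1 : r₁ ≤ 2 * (κ * R))
    (hex : 2 * Real.exp (-(3 / 2 * √(r₁ * κ / 2) * √R)) ≤ a / R) (hr : 0 < r)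
    (hr2 : r ≤ 2 * (κ * R)) (hf : f ≤ -(3 * (κ * R))) (hk : 1 / 2 * min 1 √(r₁ / r) ≤ k) :
    2 * Real.exp (k * f) ≤ a / R := by
  have hK : 0 < κ * R := mul_pos h0 hR
  have e1 : √(r₁ / (2 * (κ * R))) ≤ √(r₁ / r) := by
    apply Real.sqrt_le_sqrt
    gcongr
  have e2 : √(r₁ / (2 * (κ * R))) ≤ 1 := by
    have h3 : r₁ / (2 * (κ * R)) ≤ 1 := by
      rw [div_le_one (by positivity)]
      exact hr1
    have := Real.sqrt_le_sqrt h3
    rwa [Real.sqrt_one] at this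
  have e3 : √(r₁ / (2 * (κ * R))) ≤ min 1 √(r₁ / r) := le_min e2 e1
  have e4 : 1 / 2 * √(r₁ / (2 * (κ * R))) ≤ k := by linarith
  have hs := Real.sqrt_nonneg (r₁ / (2 * (κ * R)))
  have e5 : k * f ≤ 1 / 2 * √(r₁ / (2 * (κ * R))) * -(3 * (κ * R)) := by nlinarith
  have e6 : √(r₁ / (2 * (κ * R))) * (κ * R) = √(r₁ * κ / 2) * √R := by
    have h3 : √(r₁ / (2 * (κ * R))) * (κ * R) = √(r₁ / (2 * (κ * R)) * (κ * R) ^ 2) := by
      rw [Real.sqrt_mul (by positivity), Real.sqrt_sq hK.le]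
    rw [h3, ← Real.sqrt_mul (by positivity)]
    congr 1
    field_simp
  have e7 : k * f ≤ -(3 / 2 * √(r₁ * κ / 2) * √R) := by
    calc k * f ≤ 1 / 2 * √(r₁ / (2 * (κ * R))) * -(3 * (κ * R)) := e5
      _ = -(3 / 2) * (√(r₁ / (2 * (κ * R))) * (κ * R)) := by ring
      _ = _ := by rw [e6]; ring
  refine le_trans ?_ hex
  gcongr

end Vale.Agent.P088.R2.H475.A
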